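import Vale.Agent.P327.Glue
import Vale.Agent.P327.Glue2

/-!
# P327: two classes of homeomorphisms of Cantor space that induce only the trivial automorphism

Let `π` be an automorphism of the partial order of the Turing degrees which is induced by a
homeomorphism `F` of the Cantor space of subsets of the natural numbers.  If `F` is additive for
symmetric difference, or if `F` and its inverse are uniformly invariant under finite differences,
then `π` fixes every degree.  In the additive case `F` and its inverse are moreover computable.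
-/

namespace Vale.Agent.Results.P327.BothClasses

open scoped symmDiff

/-- The characteristic function of `A`, as a total oracle with values in `{0, 1}`. -/
noncomputable def chi (A : Set ℕ) : ℕ →. ℕ := fun n => Part.some (A.indicator (fun _ => 1) n)

/-- A copy of the type of subsets of `ℕ`, to carry the preorder of Turing reducibility. -/
def TSet : Type := Set ℕ

/-- Turing reducibility of sets: `A ≤ B` iff the characteristic function of `A` is recursive in
the characteristic function of `B`. -/
noncomputable instance : Preorder TSet where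
  le A B := TuringReducible (chi A) (chi B)
  le_refl A := TuringReducible.refl (chi A)
  le_trans _ _ _ h1 h2 := TuringReducible.trans h1 h2

/-- The partial order of the Turing degrees of subsets of `ℕ`. -/
abbrev DT : Type := Antisymmetrization TSet (· ≤ ·)

/-- The Turing degree of a set. -/
noncomputable def deg (A : Set ℕ) : DT := toAntisymmetrization (α := TSet) (· ≤ ·) A

/-- `K` is continuous for the Cantor topology: each membership `m ∈ K A` depends only on a finite
initial part of `A`. -/
def CantorContinuous (K : Set ℕ → Set ℕ) : Prop :=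
  ∀ m, ∃ N, ∀ A B : Set ℕ, (∀ n < N, n ∈ A ↔ n ∈ B) → (m ∈ K A ↔ m ∈ K B)

/-- `K` is additive for symmetric difference. -/
def Additive (K : Set ℕ → Set ℕ) : Prop :=
  ∀ A B : Set ℕ, K (A ∆ B) = K A ∆ K B

/-- `K` is uniformly invariant under finite differences: for every `a` there is `b` such that sets
that agree from `a` on are sent to sets that agree from `b` on. -/
def UniformlyE0Invariant (K : Set ℕ → Set ℕ) : Prop :=
  ∀ a, ∃ b, ∀ A B : Set ℕ, (∀ n, a ≤ n → (n ∈ A ↔ n ∈ B)) → ∀ n, b ≤ n → (n ∈ K A ↔ n ∈ K B)

open Classical in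
/-- `K` is given by the parity checks listed by `T`: `m ∈ K A` iff the number of positions of the
list `T m` whose entry lies in `A` is odd. -/
def GivenByParityChecks (K : Set ℕ → Set ℕ) (T : ℕ → List ℕ) : Prop :=
  ∀ (A : Set ℕ) (m : ℕ), m ∈ K A ↔ Odd ((T m).countP (fun k => decide (k ∈ A)))

theorem result (π : DT ≃o DT) (F : Set ℕ ≃ Set ℕ)
    (hπ : ∀ A : Set ℕ, π (deg A) = deg (F A))
    (hcont : CantorContinuous F)
    (hclass : Additive F ∨ (UniformlyE0Invariant F ∧ UniformlyE0Invariant F.symm)) :
    (∀ a : DT, π a = a) ∧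
    (∀ A : Set ℕ, TuringEquivalent (chi (F A)) (chi A)) ∧
    (Additive F →
      (∃ T : ℕ → List ℕ, Computable T ∧ GivenByParityChecks F T) ∧
      (∃ T : ℕ → List ℕ, Computable T ∧ GivenByParityChecks F.symm T)) := by
  have hle : ∀ A B : Set ℕ, deg A ≤ deg B ↔
      Nat.RecursiveIn {Vale.Agent.P327.setChi B} (Vale.Agent.P327.setChi A) := by
    intro A B
    exact (toAntisymmetrization_le_toAntisymmetrization_iff (α := TSet)).trans RecursiveIn.iff_nat
  have hiff : ∀ A B : Set ℕ,
      Nat.RecursiveIn {Vale.Agent.P327.setChi B} (Vale.Agent.P327.setChi A) ↔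
      Nat.RecursiveIn {Vale.Agent.P327.setChi (F B)} (Vale.Agent.P327.setChi (F A)) := by
    intro A B
    rw [← hle, ← hle, ← hπ, ← hπ, OrderIso.le_iff_le]
  have h : ∀ A : Set ℕ,
      Nat.RecursiveIn {Vale.Agent.P327.setChi A} (Vale.Agent.P327.setChi (F A)) ∧
      Nat.RecursiveIn {Vale.Agent.P327.setChi (F A)} (Vale.Agent.P327.setChi A) := by
    rcases hclass with hadd | ⟨hE, hE'⟩
    · exact (Vale.Agent.P327.set_rigid F hadd hcont hiff).2.2
    · exact Vale.Agent.P327.set_ue_rigid F hcont hE hE' hiff
  have hfix : ∀ A : Set ℕ, π (deg A) = deg A := by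
    intro A
    rw [hπ]
    exact le_antisymm ((hle _ _).2 (h A).1) ((hle _ _).2 (h A).2)
  refine ⟨?_, ?_, ?_⟩
  · intro x
    induction x using Quotient.inductionOn with
    | h A => exact hfix A
  · intro A
    exact ⟨RecursiveIn.iff_nat.2 (h A).1, RecursiveIn.iff_nat.2 (h A).2⟩
  · intro hadd
    obtain ⟨⟨T1, hT1, h1⟩, ⟨T2, hT2, h2⟩, _⟩ := Vale.Agent.P327.set_rigid F hadd hcont hiff
    exact ⟨⟨T1, hT1, fun A m => h1 A m⟩, ⟨T2, hT2, fun A m => h2 A m⟩⟩

end Vale.Agent.Results.P327.BothClasses
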