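import Vale.Agent.P327.Glue

/-!
# P327: automorphisms of the Turing degrees induced by continuous automorphisms of the Cantor group

Every automorphism of the partial order of the Turing degrees that is induced by a continuous
automorphism of the group of subsets of the natural numbers under symmetric difference is the
identity.  The maps `A ↦ f '' A` for permutations `f` of the natural numbers are special cases.
-/

namespace Vale.Agent.Results.P327.CantorGroupAut

open scoped symmDiff

/-- The characteristic function of `A`, as a total oracle with values in `{0, 1}`. -/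
noncomputable def chi (A : Set ℕ) : ℕ →. ℕ := fun n => Part.some (A.indicator (fun _ => 1) n)

/-- A copy of the type of subsets of `ℕ`, to carry the preorder of Turing reducibility. -/
def TSet : Type := Set ℕ

/-- Turing reducibility of sets: `A ≤ B` iff the characteristic function of `A` is recursive in
the characteristic function of `B`. -/
noncomputable instance : Preorder TSet where
  le A B := TuringReducible (chi A) (chi B)
  le_refl A := TuringReducible.refl (chi A)
  le_trans _ _ _ h1 h2 := TuringReducible.trans h1 h2

/-- The partial order of the Turing degrees of subsets of `ℕ`. -/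
abbrev DT : Type := Antisymmetrization TSet (· ≤ ·)

/-- The Turing degree of a set. -/
noncomputable def deg (A : Set ℕ) : DT := toAntisymmetrization (α := TSet) (· ≤ ·) A

theorem result (F : Set ℕ ≃ Set ℕ)
    (hadd : ∀ A B : Set ℕ, F (A ∆ B) = F A ∆ F B)
    (hcont : ∀ m, ∃ N, ∀ A B : Set ℕ, (∀ n < N, n ∈ A ↔ n ∈ B) → (m ∈ F A ↔ m ∈ F B))
    (π : DT ≃o DT) (hπ : ∀ A : Set ℕ, π (deg A) = deg (F A)) :
    π = OrderIso.refl DT := by
  have hle : ∀ A B : Set ℕ, deg A ≤ deg B ↔
      Nat.RecursiveIn {Vale.Agent.P327.setChi B} (Vale.Agent.P327.setChi A) := by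
    intro A B
    exact (toAntisymmetrization_le_toAntisymmetrization_iff (α := TSet)).trans RecursiveIn.iff_nat
  have hiff : ∀ A B : Set ℕ,
      Nat.RecursiveIn {Vale.Agent.P327.setChi B} (Vale.Agent.P327.setChi A) ↔
      Nat.RecursiveIn {Vale.Agent.P327.setChi (F B)} (Vale.Agent.P327.setChi (F A)) := by
    intro A B
    rw [← hle, ← hle, ← hπ, ← hπ, OrderIso.le_iff_le]
  obtain ⟨_, _, h⟩ := Vale.Agent.P327.set_rigid F hadd hcont hiff
  have hfix : ∀ A : Set ℕ, π (deg A) = deg A := by
    intro A
    rw [hπ]
    exact le_antisymm ((hle _ _).2 (h A).1) ((hle _ _).2 (h A).2)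
  ext x
  induction x using Quotient.inductionOn with
  | h A => exact hfix A

end Vale.Agent.Results.P327.CantorGroupAut
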