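import Vale.Agent.P327.Glue

/-!
# P327: continuous automorphisms of the Cantor group that respect Turing reducibility are computable

A continuous automorphism `F` of the group of subsets of the natural numbers under symmetric
difference that preserves and reflects Turing reducibility is given by uniformly computable finite
parity checks, and so is its inverse; in particular `F A` is Turing equivalent to `A` for all `A`.
-/

namespace Vale.Agent.Results.P327.CantorGroupComputable

open scoped symmDiff

/-- The characteristic function of `A`, as a total oracle with values in `{0, 1}`. -/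
noncomputable def chi (A : Set ℕ) : ℕ →. ℕ := fun n => Part.some (A.indicator (fun _ => 1) n)

open Classical in
/-- `K` is given by the parity checks listed by `T`: `m ∈ K A` iff the number of positions of the
list `T m` whose entry lies in `A` is odd. -/
def GivenByParityChecks (K : Set ℕ → Set ℕ) (T : ℕ → List ℕ) : Prop :=
  ∀ (A : Set ℕ) (m : ℕ), m ∈ K A ↔ Odd ((T m).countP (fun k => decide (k ∈ A)))

theorem result (F : Set ℕ ≃ Set ℕ)
    (hadd : ∀ A B : Set ℕ, F (A ∆ B) = F A ∆ F B)
    (hcont : ∀ m, ∃ N, ∀ A B : Set ℕ, (∀ n < N, n ∈ A ↔ n ∈ B) → (m ∈ F A ↔ m ∈ F B))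
    (hT : ∀ A B : Set ℕ,
      TuringReducible (chi A) (chi B) ↔ TuringReducible (chi (F A)) (chi (F B))) :
    (∃ T : ℕ → List ℕ, Computable T ∧ GivenByParityChecks F T) ∧
    (∃ T : ℕ → List ℕ, Computable T ∧ GivenByParityChecks F.symm T) ∧
    ∀ A : Set ℕ, TuringEquivalent (chi (F A)) (chi A) := by
  have hiff : ∀ A B : Set ℕ,
      Nat.RecursiveIn {Vale.Agent.P327.setChi B} (Vale.Agent.P327.setChi A) ↔
      Nat.RecursiveIn {Vale.Agent.P327.setChi (F B)} (Vale.Agent.P327.setChi (F A)) := by
    intro A B
    exact RecursiveIn.iff_nat.symm.trans ((hT A B).trans RecursiveIn.iff_nat)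
  obtain ⟨⟨T1, hT1, h1⟩, ⟨T2, hT2, h2⟩, h⟩ := Vale.Agent.P327.set_rigid F hadd hcont hiff
  refine ⟨⟨T1, hT1, fun A m => h1 A m⟩, ⟨T2, hT2, fun A m => h2 A m⟩, fun A => ⟨?_, ?_⟩⟩
  · exact RecursiveIn.iff_nat.2 (h A).1
  · exact RecursiveIn.iff_nat.2 (h A).2

end Vale.Agent.Results.P327.CantorGroupComputable
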