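import Vale.Agent.P327.Glue2

/-!
# P327: automorphisms of the Turing degrees induced by homeomorphisms of Cantor space that are
uniformly invariant under finite differences

Every automorphism of the partial order of the Turing degrees that is induced by a homeomorphism
`F` of the Cantor space of subsets of the natural numbers, such that `F` and its inverse are
uniformly invariant under finite differences, is the identity.
-/

namespace Vale.Agent.Results.P327.E0UniformHomeo

/-- The characteristic function of `A`, as a total oracle with values in `{0, 1}`. -/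
noncomputable def chi (A : Set ℕ) : ℕ →. ℕ := fun n => Part.some (A.indicator (fun _ => 1) n)

/-- A copy of the type of subsets of `ℕ`, to carry the preorder of Turing reducibility. -/
def TSet : Type := Set ℕ

/-- Turing reducibility of sets: `A ≤ B` iff the characteristic function of `A` is recursive in
the characteristic function of `B`. -/
noncomputable instance : Preorder TSet where
  le A B := TuringReducible (chi A) (chi B)
  le_refl A := TuringReducible.refl (chi A)
  le_trans _ _ _ h1 h2 := TuringReducible.trans h1 h2

/-- The partial order of the Turing degrees of subsets of `ℕ`. -/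
abbrev DT : Type := Antisymmetrization TSet (· ≤ ·)

/-- The Turing degree of a set. -/
noncomputable def deg (A : Set ℕ) : DT := toAntisymmetrization (α := TSet) (· ≤ ·) A

/-- `K` is uniformly invariant under finite differences: for every `a` there is `b` such that sets
that agree from `a` on are sent to sets that agree from `b` on. -/
def UniformlyE0Invariant (K : Set ℕ → Set ℕ) : Prop :=
  ∀ a, ∃ b, ∀ A B : Set ℕ, (∀ n, a ≤ n → (n ∈ A ↔ n ∈ B)) → ∀ n, b ≤ n → (n ∈ K A ↔ n ∈ K B)

theorem result (F : Set ℕ ≃ Set ℕ)
    (hcont : ∀ m, ∃ N, ∀ A B : Set ℕ, (∀ n < N, n ∈ A ↔ n ∈ B) → (m ∈ F A ↔ m ∈ F B))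
    (hE : UniformlyE0Invariant F) (hE' : UniformlyE0Invariant F.symm)
    (π : DT ≃o DT) (hπ : ∀ A : Set ℕ, π (deg A) = deg (F A)) :
    π = OrderIso.refl DT := by
  have hle : ∀ A B : Set ℕ, deg A ≤ deg B ↔
      Nat.RecursiveIn {Vale.Agent.P327.setChi B} (Vale.Agent.P327.setChi A) := by
    intro A B
    exact (toAntisymmetrization_le_toAntisymmetrization_iff (α := TSet)).trans RecursiveIn.iff_nat
  have hiff : ∀ A B : Set ℕ,
      Nat.RecursiveIn {Vale.Agent.P327.setChi B} (Vale.Agent.P327.setChi A) ↔
      Nat.RecursiveIn {Vale.Agent.P327.setChi (F B)} (Vale.Agent.P327.setChi (F A)) := by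
    intro A B
    rw [← hle, ← hle, ← hπ, ← hπ, OrderIso.le_iff_le]
  have h := Vale.Agent.P327.set_ue_rigid F hcont hE hE' hiff
  have hfix : ∀ A : Set ℕ, π (deg A) = deg A := by
    intro A
    rw [hπ]
    exact le_antisymm ((hle _ _).2 (h A).1) ((hle _ _).2 (h A).2)
  ext x
  induction x using Quotient.inductionOn with
  | h A => exact hfix A

end Vale.Agent.Results.P327.E0UniformHomeo
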